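import Vale.Agent.P079.Weak

/-! Minimal invariant sets, the Goebel-Karlovitz lemma and resolvents. -/

namespace Vale.Agent.P079

open Filter Topology Set Metric

variable {X : Type*} [NormedAddCommGroup X] [NormedSpace ℝ X]

/-- Nonexpansive self-maps of `K` that almost fix the points of the filter `F`. -/
structure Good (K : Set X) (F : Filter X) (J : X → X) : Prop where
  maps : MapsTo J K K
  lip : ∀ x ∈ K, ∀ y ∈ K, ‖J x - J y‖ ≤ ‖x - y‖
  fix : ∀ ε > 0, ∀ᶠ w in F, ‖J w - w‖ ≤ ε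

/-- The data extracted from a fixed point free nonexpansive map. -/
structure Data (K : Set X) (F : Filter X) (d : ℝ) : Prop where
  ne : K.Nonempty
  cl : IsClosed K
  cv : Convex ℝ K
  pos : 0 < d
  diam : ∀ x ∈ K, ∀ y ∈ K, ‖x - y‖ ≤ d
  mem : K ∈ F
  gk : ∀ x ∈ K, ∀ ε > 0, ∀ᶠ w in F, d - ε ≤ ‖w - x‖
  res : ∀ E ∈ F, ∃ J, Good K F J ∧ ∀ y ∈ K, J y ∈ E

theorem exists_resolvent [CompleteSpace X] {K : Set X} (hcl : IsClosed K) (hcv : Convex ℝ K)
    {T : X → X} (hT : MapsTo T K K) (hlip : ∀ x ∈ K, ∀ y ∈ K, ‖T x - T y‖ ≤ ‖x - y‖)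
    {t : ℝ} (ht0 : 0 ≤ t) (ht1 : t < 1) {y : X} (hy : y ∈ K) :
    ∃ w ∈ K, w = t • T w + (1 - t) • y := by
  have hmaps : MapsTo (fun w => t • T w + (1 - t) • y) K K := fun w hw =>
    hcv (hT hw) hy ht0 (by linarith) (by ring)
  have hc : ContractingWith ⟨t, ht0⟩ (hmaps.restrict _ K K) := by
    refine ⟨by exact_mod_cast ht1, LipschitzWith.of_dist_le_mul fun a b => ?_⟩
    simp only [Subtype.dist_eq, MapsTo.val_restrict_apply, dist_eq_norm]
    have : t • T a + (1 - t) • y - (t • T b + (1 - t) • y) = t • (T a - T b) := by module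
    rw [this, norm_smul, Real.norm_eq_abs, abs_of_nonneg ht0]
    exact mul_le_mul_of_nonneg_left (hlip _ a.2 _ b.2) ht0
  obtain ⟨w, hw, hfix, -⟩ := hc.exists_fixedPoint' hcl.isComplete hmaps hy (edist_ne_top _ _)
  exact ⟨w, hw, hfix.symm⟩

theorem exists_data [CompleteSpace X] (hX : WCpt X) {C : Set X} (hne : C.Nonempty)
    (hcl : IsClosed C) (hb : Bornology.IsBounded C) (hcv : Convex ℝ C) {T : X → X}
    (hT : MapsTo T C C) (hlip : ∀ x ∈ C, ∀ y ∈ C, ‖T x - T y‖ ≤ ‖x - y‖)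
    (hfix : ∀ x ∈ C, T x ≠ x) : ∃ (K : Set X) (F : Filter X) (d : ℝ), Data K F d := by
  obtain ⟨K, ⟨hKne, hKC, hKcl, hKcv, hKT⟩, hmin⟩ := exists_minimal hX
    {A | A.Nonempty ∧ A ⊆ C ∧ IsClosed A ∧ Convex ℝ A ∧ MapsTo T A A} C
    ⟨hne, subset_rfl, hcl, hcv, hT⟩ hb (fun A hA => hA.1) (fun A hA => hA.2.1)
    (fun A hA x hx => hx.mem_of_convex (mem_principal_self A) hA.2.2.1 hA.2.2.2.1)
    (fun c hc ⟨A, hA⟩ hn => ⟨hn, (sInter_subset_of_mem hA).trans (hc hA).2.1,
      isClosed_sInter fun B hB => (hc hB).2.2.1, convex_sInter fun B hB => (hc hB).2.2.2.1,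
      fun x hx B hB => (hc hB).2.2.2.2 (hx B hB)⟩)
  have hmin' : ∀ A, A.Nonempty → A ⊆ K → IsClosed A → Convex ℝ A → MapsTo T A A → K ⊆ A :=
    fun A h1 h2 h3 h4 h5 => hmin ⟨h1, h2.trans hKC, h3, h4, h5⟩ h2
  have hKb : Bornology.IsBounded K := hb.subset hKC
  have hKl : ∀ x ∈ K, ∀ y ∈ K, ‖T x - T y‖ ≤ ‖x - y‖ := fun x hx y hy =>
    hlip x (hKC hx) y (hKC hy)
  set d := Metric.diam K with hd
  have hdiam : ∀ x ∈ K, ∀ y ∈ K, ‖x - y‖ ≤ d := fun x hx y hy => by
    rw [← dist_eq_norm]; exact dist_le_diam_of_mem hKb hx hy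
  have hdpos : 0 < d := by
    obtain ⟨x, hx⟩ := hKne
    exact lt_of_lt_of_le (norm_pos_iff.2 (sub_ne_zero.2 (hfix x (hKC hx)))) (hdiam _ (hKT hx) _ hx)
  -- every point is diametral
  have hdia : ∀ w ∈ K, ∀ r : ℝ, (∀ x ∈ K, ‖w - x‖ ≤ r) → d ≤ r := by
    intro w hw r hr
    have hr0 : 0 ≤ r := (norm_nonneg _).trans (hr w hw)
    have hhull : K ⊆ closure (convexHull ℝ (T '' K)) := by
      have hsub : closure (convexHull ℝ (T '' K)) ⊆ K :=
        closure_minimal (convexHull_min hKT.image_subset hKcv) hKcl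
      refine hmin' _ ⟨T w, subset_closure (subset_convexHull _ _ ⟨w, hw, rfl⟩)⟩ hsub isClosed_closure
        (convex_convexHull _ _).closure fun x hx => ?_
      exact subset_closure (subset_convexHull _ _ ⟨x, hsub hx, rfl⟩)
    have heq : {v | v ∈ K ∧ ∀ x ∈ K, ‖v - x‖ ≤ r} = K ∩ ⋂ x ∈ K, closedBall x r := by
      ext v; simp [mem_closedBall, dist_eq_norm]
    have := hmin' {v | v ∈ K ∧ ∀ x ∈ K, ‖v - x‖ ≤ r} ⟨w, hw, hr⟩ (fun v hv => hv.1)
      (by rw [heq]; exact hKcl.inter (isClosed_biInter fun x _ => isClosed_closedBall))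
      (by rw [heq]; exact hKcv.inter (convex_iInter₂ fun x _ => convex_closedBall x r))
      (by
        intro v hv
        refine ⟨hKT hv.1, fun x hx => ?_⟩
        have : closure (convexHull ℝ (T '' K)) ⊆ closedBall (T v) r := by
          refine closure_minimal (convexHull_min ?_ (convex_closedBall _ _)) isClosed_closedBall
          rintro _ ⟨y, hy, rfl⟩
          rw [mem_closedBall, dist_comm, dist_eq_norm]
          exact (hKl v hv.1 y hy).trans (hv.2 y hy)
        have := this (hhull hx)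
        rwa [mem_closedBall, dist_comm, dist_eq_norm] at this)
    exact diam_le_of_forall_dist_le hr0 fun x hx y hy => by
      rw [dist_eq_norm]; exact (this hx).2 y hy
  let F : Filter X := comap (fun w => ‖T w - w‖) (𝓝 0) ⊓ 𝓟 K
  have hFK : K ∈ F := mem_inf_of_right (mem_principal_self K)
  have hFs : ∀ ε > 0, ∀ᶠ w in F, ‖T w - w‖ ≤ ε := by
    intro ε hε
    apply mem_inf_of_left
    exact preimage_mem_comap (m := fun w => ‖T w - w‖) (Iic_mem_nhds hε)
  refine ⟨K, F, d, hKne, hKcl, hKcv, hdpos, hdiam, hFK, ?_, ?_⟩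
  · intro x0 hx0 ε hε
    by_contra hcon
    rw [not_eventually] at hcon
    let G : Filter X := F ⊓ 𝓟 {w | ¬ (d - ε ≤ ‖w - x0‖)}
    have hG : G.NeBot := frequently_iff_neBot.1 hcon
    have hGF : G ≤ F := inf_le_left
    have hall : K ⊆ {x | x ∈ K ∧ ∀ η > 0, ∀ᶠ w in G, ‖w - x‖ ≤ d - ε + η} := by
      refine hmin' _ ⟨x0, hx0, fun η hη => ?_⟩ (fun v hv => hv.1) ?_ ?_ ?_
      · have : {w | ¬ (d - ε ≤ ‖w - x0‖)} ∈ G := mem_inf_of_right (mem_principal_self _)
        filter_upwards [this] with w hw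
        push Not at hw; linarith
      · refine isClosed_of_closure_subset fun x hx => ⟨hKcl.closure_subset
          (closure_mono (fun v hv => hv.1) hx), fun η hη => ?_⟩
        obtain ⟨y, hy, hxy⟩ := Metric.mem_closure_iff.1 hx (η / 2) (by positivity)
        filter_upwards [hy.2 (η / 2) (by positivity)] with w hw
        rw [dist_comm, dist_eq_norm] at hxy
        have : ‖w - x‖ ≤ ‖w - y‖ + ‖y - x‖ := norm_sub_le_norm_sub_add_norm_sub _ _ _
        linarith
      · intro x hx y hy a b ha hb hab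
        refine ⟨hKcv hx.1 hy.1 ha hb hab, fun η hη => ?_⟩
        filter_upwards [hx.2 η hη, hy.2 η hη] with w h1 h2
        have := convex_closedBall w (d - ε + η) (x := x) (by
          rw [mem_closedBall, dist_comm, dist_eq_norm]; exact h1) (y := y) (by
          rw [mem_closedBall, dist_comm, dist_eq_norm]; exact h2) ha hb hab
        rwa [mem_closedBall, dist_comm, dist_eq_norm] at this
      · intro x hx
        refine ⟨hKT hx.1, fun η hη => ?_⟩
        filter_upwards [hx.2 (η / 2) (by positivity), hGF (hFs (η / 2) (by positivity)), hGF hFK]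
          with w h1 h2 h3
        have h4 : ‖w - T x‖ ≤ ‖w - T w‖ + ‖T w - T x‖ := norm_sub_le_norm_sub_add_norm_sub _ _ _
        have h5 := hKl w h3 x hx.1
        rw [norm_sub_rev] at h2
        linarith
    obtain ⟨v, hv⟩ := hX G K hG (hGF hFK) hKb
    have hvK : v ∈ K := hv.mem_of_convex (hGF hFK) hKcl hKcv
    have := hdia v hvK (d - ε / 2) fun x hx => by
      have h1 := (hall hx).2 (ε / 2) (by positivity)
      have := hv.mem_of_convex (A := closedBall x (d - ε / 2)) (by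
        filter_upwards [h1] with w hw
        rw [mem_closedBall, dist_eq_norm]; linarith) isClosed_closedBall (convex_closedBall _ _)
      rwa [mem_closedBall, dist_eq_norm] at this
    linarith
  · intro E hE
    obtain ⟨η, hη, hE'⟩ : ∃ η > 0, ∀ w ∈ K, ‖T w - w‖ < η → w ∈ E := by
      obtain ⟨A, ⟨B, hB, hBA⟩, D, hD, rfl⟩ := hE
      obtain ⟨η, hη, hball⟩ := Metric.mem_nhds_iff.1 hB
      refine ⟨η, hη, fun w hw hw' => ⟨hBA (hball ?_), hD hw⟩⟩
      simpa using hw'
    obtain ⟨s, hs0, hs1, hsd⟩ : ∃ s : ℝ, 0 < s ∧ s ≤ 1 ∧ s * d < η := by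
      refine ⟨min 1 (η / (2 * d)), by positivity, min_le_left _ _, ?_⟩
      calc _ ≤ η / (2 * d) * d := by gcongr; exact min_le_right _ _
        _ = η / 2 := by field_simp
        _ < η := by linarith
    have hex : ∀ y : X, ∃ w, y ∈ K → w ∈ K ∧ w = (1 - s) • T w + s • y := by
      intro y
      by_cases hy : y ∈ K
      · obtain ⟨w, hw, hw'⟩ := exists_resolvent hKcl hKcv hKT hKl (t := 1 - s) (by linarith)
          (by linarith) hy
        exact ⟨w, fun _ => ⟨hw, by simpa using hw'⟩⟩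
      · exact ⟨y, fun h => absurd h hy⟩
    choose J hJ using hex
    have hn : ∀ (a : ℝ) (v : X), 0 ≤ a → ‖a • v‖ = a * ‖v‖ := fun a v ha => by
      rw [norm_smul, Real.norm_eq_abs, abs_of_nonneg ha]
    refine ⟨J, ⟨fun y hy => (hJ y hy).1, fun x hx y hy => ?_, fun ε hε => ?_⟩, fun y hy => ?_⟩
    · have h1 : J x - J y = (1 - s) • (T (J x) - T (J y)) + s • (x - y) := by
        conv_lhs => rw [(hJ x hx).2, (hJ y hy).2]
        module
      have h2 := norm_add_le ((1 - s) • (T (J x) - T (J y))) (s • (x - y))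
      rw [← h1, hn _ _ (by linarith), hn _ _ hs0.le] at h2
      have h3 := hKl _ (hJ x hx).1 _ (hJ y hy).1
      have h4 : s * ‖J x - J y‖ ≤ s * ‖x - y‖ := by nlinarith
      exact le_of_mul_le_mul_left h4 hs0
    · filter_upwards [hFs (s * ε) (by positivity), hFK] with w hw hwK
      have h1 : J w - w = (1 - s) • (T (J w) - T w) + (1 - s) • (T w - w) := by
        conv_lhs => rw [(hJ w hwK).2]
        module
      have h2 := norm_add_le ((1 - s) • (T (J w) - T w)) ((1 - s) • (T w - w))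
      rw [← h1, hn _ _ (by linarith), hn _ _ (by linarith)] at h2
      have h3 := hKl _ (hJ w hwK).1 _ hwK
      have h4 : s * ‖J w - w‖ ≤ s * ε := by nlinarith [norm_nonneg (T w - w)]
      exact le_of_mul_le_mul_left h4 hs0
    · refine hE' _ (hJ y hy).1 ?_
      have h1 : T (J y) - J y = s • (T (J y) - y) := by
        conv_lhs => arg 2; rw [(hJ y hy).2]
        module
      rw [h1, hn _ _ hs0.le]
      have := hdiam _ (hKT (hJ y hy).1) _ hy
      nlinarith

end Vale.Agent.P079
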