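import Vale.Agent.P079.GK

/-! The self-generating set of base points, approximation by newer and newer nodes. -/

namespace Vale.Agent.P079

open Filter Topology Set Metric

variable {X : Type*} [NormedAddCommGroup X] [NormedSpace ℝ X]

/-- Values of good maps at points of `B`. -/
def Node (K : Set X) (F : Filter X) (B : Set X) : Set X :=
  {z | ∃ J, Good K F J ∧ ∃ c ∈ B, z = J c}

omit [NormedSpace ℝ X] in
theorem Node.mono {K : Set X} {F : Filter X} {A B : Set X} (h : A ⊆ B) :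
    Node K F A ⊆ Node K F B := fun _ ⟨J, hJ, c, hc, hz⟩ => ⟨J, hJ, c, h hc, hz⟩

theorem WCl.closed {G : Filter X} {x : X} (h : WCl (𝓟 {y | WCl G y}) x) : WCl G x := by
  intro s ε hε
  obtain ⟨y, hy1, hy2⟩ := ((h s (ε / 2) (by positivity)).and_eventually
    (mem_principal_self {y | WCl G y})).exists
  refine (hy2 s (ε / 2) (by positivity)).mono fun w hw φ hφ => ?_
  have h1 := hw φ hφ
  have h2 := hy1 φ hφ
  rw [abs_lt] at *
  constructor <;> linarith [h1.1, h1.2, h2.1, h2.2]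

variable {K : Set X} {F : Filter X} {d : ℝ}

theorem Data.bdd (D : Data K F d) : Bornology.IsBounded K := by
  obtain ⟨x, hx⟩ := D.ne
  refine (isBounded_closedBall (x := x) (r := d)).subset fun y hy => ?_
  rw [mem_closedBall, dist_eq_norm]; exact D.diam y hy x hx

theorem Data.neBot (D : Data K F d) {A : Set X} (hA : A.Nonempty) (hAK : A ⊆ K) :
    (F ⊓ 𝓟 (Node K F A)).NeBot := by
  rw [inf_principal_neBot_iff]
  intro E hE
  obtain ⟨J, hJ, hJE⟩ := D.res E hE
  obtain ⟨c, hc⟩ := hA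
  exact ⟨J c, hJE c (hAK hc), J, hJ, c, hc, rfl⟩

theorem exists_base (hX : WCpt X) (D : Data K F d) :
    ∃ B : Set X, B.Nonempty ∧ B ⊆ K ∧ ∀ c ∈ B, WCl (F ⊓ 𝓟 (Node K F B)) c := by
  let Γ : Set X → Set X := fun A => {x | WCl (F ⊓ 𝓟 (Node K F A)) x}
  have hΓK : ∀ A, Γ A ⊆ K := fun A x hx =>
    WCl.mem_of_convex hx (mem_inf_of_left D.mem) D.cl D.cv
  have hΓmono : ∀ A A', A ⊆ A' → Γ A ⊆ Γ A' := fun A A' h x hx =>
    WCl.mono hx (inf_le_inf_left _ (principal_mono.2 (Node.mono h)))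
  obtain ⟨B, ⟨hBne, hBK, hBcl, hBΓ⟩, hmin⟩ := exists_minimal hX
    {A | A.Nonempty ∧ A ⊆ K ∧ (∀ x, WCl (𝓟 A) x → x ∈ A) ∧ Γ A ⊆ A} K
    ⟨D.ne, subset_rfl, fun x hx => hx.mem_of_convex (mem_principal_self K) D.cl D.cv, hΓK K⟩
    D.bdd (fun A hA => hA.1) (fun A hA => hA.2.1) (fun A hA => hA.2.2.1)
    (fun c hc ⟨A, hA⟩ hn => ⟨hn, (sInter_subset_of_mem hA).trans (hc hA).2.1,
      fun x hx B hB => (hc hB).2.2.1 x (hx.mono (principal_mono.2 (sInter_subset_of_mem hB))),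
      fun x hx B hB => (hc hB).2.2.2 (hΓmono _ _ (sInter_subset_of_mem hB) hx)⟩)
  refine ⟨B, hBne, hBK, fun c hc => ?_⟩
  have : B ⊆ Γ B := hmin ⟨hX _ K (D.neBot hBne hBK) (mem_inf_of_left D.mem) D.bdd, hΓK B,
    fun x hx => WCl.closed hx, hΓmono _ _ hBΓ⟩ hBΓ
  exact this hc

/-- A weak cluster point is approximated by convex combinations of adaptively chosen points. -/
theorem exists_comb (hX : WCpt X) {G : Filter X} {c : X} (hc : WCl G c) {R : ℝ}
    (hR : ∀ᶠ w in G, ‖w - c‖ ≤ R) (E : ℕ → Set X → Set X)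
    (hE : ∀ n S, S.Finite → E n S ∈ G) {δ : ℝ} (hδ : 0 < δ) :
    ∃ (z : ℕ → X) (M : ℕ) (lam : ℕ → ℝ), (∀ n, z n ∈ E n (z '' Iio n)) ∧ (∀ i, 0 ≤ lam i) ∧
      ∑ i ∈ Finset.range M, lam i = 1 ∧ ‖∑ i ∈ Finset.range M, lam i • z i - c‖ ≤ δ := by
  classical
  obtain ⟨f, hf⟩ := dc2 (α := X × StrongDual ℝ X)
    (fun n S p => p.1 ∈ E n (Prod.fst '' S) ∧ ‖p.1 - c‖ ≤ R ∧
      (∀ q ∈ S, |q.2 p.1 - q.2 c| < δ / 2) ∧ ‖p.2‖ ≤ 1 ∧
      ∀ y ∈ convexHull ℝ (insert p.1 (Prod.fst '' S)),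
        infDist c (convexHull ℝ (insert p.1 (Prod.fst '' S))) ≤ p.2 (y - c)) (by
      intro n S hS
      have hE' : ∀ᶠ w in G, w ∈ E n (Prod.fst '' S) := hE n _ (hS.image Prod.fst)
      obtain ⟨w, hw1, hw2, hw3⟩ := ((hc (hS.toFinset.image Prod.snd) (δ / 2)
        (by positivity)).and_eventually (hE'.and hR)).exists
      obtain ⟨ψ, hψ1, hψ2⟩ := exists_sep _ (convex_convexHull ℝ (insert w (Prod.fst '' S))) c
      exact ⟨(w, ψ), hw2, hw3, fun q hq => hw1 _ (Finset.mem_image_of_mem _ (by simpa using hq)),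
        hψ1, hψ2⟩)
  let z : ℕ → X := fun n => (f n).1
  have hz : ∀ n, Prod.fst '' (f '' Iio n) = z '' Iio n := fun n => by rw [image_image]
  have hnear : ∃ y ∈ convexHull ℝ (range z), ‖y - c‖ ≤ δ := by
    by_contra hcon
    push Not at hcon
    refine james hX (fun k => z k - c) (fun i => -(f i).2) R (-δ) (-(δ / 2)) (by linarith)
      (fun k => (hf k).2.1) (fun i => by simpa using (hf i).2.2.2.1) (fun i => ?_) (fun k => ?_)
    · filter_upwards [eventually_gt_atTop i] with k hk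
      have := (hf k).2.2.1 (f i) ⟨i, hk, rfl⟩
      rw [abs_lt] at this
      simp only [neg_apply, map_sub]
      linarith [this.2]
    · filter_upwards [eventually_ge_atTop k] with i hi
      have hmem : z k ∈ insert (f i).1 (Prod.fst '' (f '' Iio i)) := by
        rcases hi.eq_or_lt with rfl | hlt
        · exact mem_insert _ _
        · exact mem_insert_of_mem _ ⟨f k, ⟨k, hlt, rfl⟩, rfl⟩
      have h1 := (hf i).2.2.2.2 (z k) (subset_convexHull _ _ hmem)
      have h2 : δ ≤ infDist c (convexHull ℝ (insert (f i).1 (Prod.fst '' (f '' Iio i)))) := by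
        rw [le_infDist ⟨_, subset_convexHull _ _ hmem⟩]
        intro y hy
        have : y ∈ convexHull ℝ (range z) := by
          refine convexHull_mono ?_ hy
          rintro _ (rfl | ⟨_, ⟨j, -, rfl⟩, rfl⟩)
          · exact ⟨i, rfl⟩
          · exact ⟨j, rfl⟩
        rw [dist_comm, dist_eq_norm]
        exact (hcon y this).le
      simp only [neg_apply]
      linarith
  obtain ⟨y, hy, hyc⟩ := hnear
  rw [convexHull_range_eq_exists_affineCombination] at hy
  obtain ⟨s, w, hw0, hw1, rfl⟩ := hy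
  rw [Finset.affineCombination_eq_linear_combination _ _ _ hw1] at hyc
  have hs : s ⊆ Finset.range (s.sup id + 1) := fun i hi =>
    Finset.mem_range.2 (Nat.lt_succ_of_le (Finset.le_sup (f := id) hi))
  refine ⟨z, s.sup id + 1, fun i => if i ∈ s then w i else 0, fun n => hz n ▸ (hf n).1,
    fun i => ?_, ?_, ?_⟩
  · dsimp only
    split_ifs with h
    exacts [hw0 i h, le_rfl]
  · rw [Finset.sum_ite_mem, Finset.inter_eq_right.2 hs, hw1]
  · simp only [ite_smul, zero_smul]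
    rw [Finset.sum_ite_mem, Finset.inter_eq_right.2 hs]
    exact hyc

theorem Data.gk_compact (D : Data K F d) {Q : Set X} (hQ : IsCompact Q) (hQK : Q ⊆ K) {ε : ℝ}
    (hε : 0 < ε) : ∀ᶠ w in F, ∀ q ∈ Q, d - ε ≤ ‖w - q‖ := by
  obtain ⟨t, htQ, htf, hcov⟩ := hQ.finite_cover_balls (show 0 < ε / 2 by positivity)
  have : ∀ᶠ w in F, ∀ x ∈ t, d - ε / 2 ≤ ‖w - x‖ :=
    (eventually_all_finite htf).2 fun x hx => D.gk x (hQK (htQ hx)) _ (by positivity)
  filter_upwards [this] with w hw q hq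
  obtain ⟨x, hx, hqx⟩ := mem_iUnion₂.1 (hcov hq)
  rw [mem_ball, dist_eq_norm] at hqx
  have h1 : ‖w - x‖ ≤ ‖w - q‖ + ‖q - x‖ := norm_sub_le_norm_sub_add_norm_sub _ _ _
  linarith [hw x hx]

theorem Data.gk_fun (D : Data K F d) {P : Set X} (hP : P.Finite) (hPK : P ⊆ K) :
    ∀ {Q : Set X}, IsCompact Q → Q ⊆ K → ∀ {ε : ℝ}, 0 < ε →
      ∀ᶠ w in F, ∀ q ∈ Q, ∃ φ : StrongDual ℝ X, ‖φ‖ ≤ 1 ∧ d - ε ≤ φ (w - q) ∧
        ∀ p ∈ P, d - ε ≤ φ (w - p) := by
  induction P, hP using Set.Finite.induction_on with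
  | empty =>
    intro Q hQ hQK ε hε
    filter_upwards [D.gk_compact hQ hQK hε] with w hw q hq
    obtain ⟨φ, hφ1, hφ2⟩ := exists_dual_vector'' ℝ (w - q)
    refine ⟨φ, hφ1, ?_, by simp⟩
    have : φ (w - q) = ‖w - q‖ := by simpa using hφ2
    rw [this]; exact hw q hq
  | @insert p P _ _ ih =>
    intro Q hQ hQK ε hε
    have hpK : p ∈ K := hPK (mem_insert _ _)
    have := ih ((subset_insert _ _).trans hPK)
      (Q := (fun q => (1 / 2 : ℝ) • q + (1 / 2 : ℝ) • p) '' Q) (hQ.image (by fun_prop))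
      (by rintro _ ⟨q, hq, rfl⟩; exact D.cv (hQK hq) hpK (by norm_num) (by norm_num) (by norm_num))
      (show 0 < ε / 2 by positivity)
    filter_upwards [this, D.mem] with w hw hwK q hq
    obtain ⟨φ, hφ1, hφ2, hφ3⟩ := hw _ ⟨q, hq, rfl⟩
    have hle : ∀ x ∈ K, φ (w - x) ≤ d := fun x hx => by
      have := φ.le_opNorm (w - x)
      have h2 := D.diam w hwK x hx
      have h3 := le_abs_self (φ (w - x))
      rw [Real.norm_eq_abs] at this
      nlinarith [norm_nonneg (w - x), norm_nonneg φ]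
    have h1 : φ (w - ((1 / 2 : ℝ) • q + (1 / 2 : ℝ) • p)) =
        (1 / 2) * φ (w - q) + (1 / 2) * φ (w - p) := by
      simp only [map_sub, map_add, map_smul, smul_eq_mul]; ring
    rw [h1] at hφ2
    have h2 := hle q (hQK hq)
    have h3 := hle p hpK
    refine ⟨φ, hφ1, by linarith, ?_⟩
    rintro x (rfl | hx)
    · linarith
    · linarith [hφ3 x hx]

theorem comb_mem {S : Set X} (hS : Convex ℝ S) {b : X} (hb : b ∈ S) (z : ℕ → X) (μ : ℕ → ℝ)
    (l : ℕ) (hz : ∀ i < l, z i ∈ S) (hμ : ∀ i, 0 ≤ μ i) (hσ : ∑ i ∈ Finset.range l, μ i ≤ 1) :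
    b + ∑ i ∈ Finset.range l, μ i • (z i - b) ∈ S := by
  have := hS.sum_mem (t := Finset.range (l + 1))
    (w := fun i => if i < l then μ i else 1 - ∑ i ∈ Finset.range l, μ i)
    (z := fun i => if i < l then z i else b)
    (fun i _ => by split_ifs; exacts [hμ i, by linarith])
    (by
      rw [Finset.sum_range_succ, if_neg (lt_irrefl l), Finset.sum_congr rfl
        (fun i hi => if_pos (Finset.mem_range.1 hi))]
      ring)
    (fun i _ => by split_ifs with h; exacts [hz i h, hb])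
  rw [Finset.sum_range_succ, if_neg (lt_irrefl l), if_neg (lt_irrefl l), Finset.sum_congr rfl
    (fun i hi => by rw [if_pos (Finset.mem_range.1 hi), if_pos (Finset.mem_range.1 hi)])] at this
  convert this using 1
  simp only [smul_sub, Finset.sum_sub_distrib, ← Finset.sum_smul, sub_smul, one_smul]
  abel

end Vale.Agent.P079
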