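import Vale.Agent.P079.Node

/-! The branching step and the contradiction. -/

namespace Vale.Agent.P079

open Filter Topology Set Metric

variable {X : Type*} [NormedAddCommGroup X] [NormedSpace ℝ X]

/-- A node of the bush: context map, its Lipschitz constant, the older point `J c`,
the newer point `b`, and a sign. -/
structure St (X : Type*) where
  C : X → X
  L : ℝ
  J : X → X
  c : X
  b : X
  s : ℝ

/-- The vector attached to a node. -/
noncomputable def St.u (σ : St X) : X := (σ.s / σ.L) • (σ.C σ.b - σ.C (σ.J σ.c))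

structure Inv (K : Set X) (F : Filter X) (d : ℝ) (B : Set X) (δ : ℝ) (σ : St X) : Prop where
  maps : MapsTo σ.C K K
  pos : 0 < σ.L
  lip : ∀ x ∈ K, ∀ y ∈ K, ‖σ.C x - σ.C y‖ ≤ σ.L * ‖x - y‖
  near : ∀ ε > 0, ∀ᶠ w in F, ∀ y ∈ K, ‖σ.C y - w‖ ≤ (1 - σ.L) * d + σ.L * ‖y - w‖ + ε
  good : Good K F σ.J
  base : σ.c ∈ B
  node : σ.b ∈ Node K F B
  fix : ‖σ.J σ.b - σ.b‖ ≤ δ
  sgn : |σ.s| = 1

variable {K : Set X} {F : Filter X} {d : ℝ} {B : Set X}

omit [NormedSpace ℝ X] in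
theorem Node.subset (hBK : B ⊆ K) : Node K F B ⊆ K := by
  rintro _ ⟨J, hJ, c, hc, rfl⟩
  exact hJ.maps (hBK hc)

theorem Inv.norm_u (D : Data K F d) (hBK : B ⊆ K) {δ : ℝ} {σ : St X} (h : Inv K F d B δ σ) :
    ‖σ.u‖ ≤ d := by
  have hb := Node.subset hBK h.node
  have ha := h.good.maps (hBK h.base)
  have hL := h.pos
  rw [St.u, norm_smul, Real.norm_eq_abs, abs_div, h.sgn, abs_of_pos hL]
  calc _ ≤ 1 / σ.L * (σ.L * d) := by
        gcongr
        exact (h.lip _ hb _ ha).trans (by gcongr; exact D.diam _ hb _ ha)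
    _ = d := by field_simp

theorem exists_index (M : ℕ) (lam t : ℕ → ℝ) (β : ℝ) (h0 : ∀ i, 0 ≤ lam i)
    (h1 : ∑ i ∈ Finset.range M, lam i = 1) (ht : ∀ i < M, lam i = 0 → t i ≤ 0)
    (hβ : β ≤ ∑ i ∈ Finset.range M, t i) : ∃ i < M, 0 < lam i ∧ lam i * β ≤ t i := by
  by_contra hcon
  push Not at hcon
  have hex : ∃ i ∈ Finset.range M, 0 < lam i := by
    by_contra h
    push Not at h
    have := Finset.sum_nonpos h
    linarith
  have : ∑ i ∈ Finset.range M, t i < ∑ i ∈ Finset.range M, lam i * β := by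
    refine Finset.sum_lt_sum (fun i hi => ?_) ?_
    · rcases (h0 i).eq_or_lt with h | h
      · rw [← h, zero_mul]; exact ht i (Finset.mem_range.1 hi) h.symm
      · exact (hcon i (Finset.mem_range.1 hi) h).le
    · obtain ⟨i, hi, h⟩ := hex
      exact ⟨i, hi, hcon i (Finset.mem_range.1 hi) h⟩
  rw [← Finset.sum_mul, h1, one_mul] at this
  linarith

theorem step (hX : WCpt X) (D : Data K F d) (hBK : B ⊆ K)
    (hB : ∀ c ∈ B, WCl (F ⊓ 𝓟 (Node K F B)) c) {σ : St X} {δ : ℝ} (hδ : 0 < δ)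
    (h : Inv K F d B δ σ) (Φ : StrongDual ℝ X) {N : ℝ} (hΦ : ‖Φ‖ ≤ N) {P : Set X} (hP : P.Finite)
    (hPK : P ⊆ K) {δ' η : ℝ} (hδ' : 0 < δ') (hη : 0 < η) :
    ∃ (σ' : St X) (φ : StrongDual ℝ X), Inv K F d B δ' σ' ∧ ‖φ‖ ≤ 1 ∧
      Φ σ.u - 2 * N * δ - η ≤ Φ σ'.u - (d - φ σ'.u) ∧ ∀ p ∈ P, ∀ q ∈ P, |φ (p - q)| ≤ η := by
  obtain ⟨C, L, J, c, b, s⟩ := σ
  obtain ⟨hmaps, hL, hlip, hnear, hJ, hc, hbn, hfix, hs⟩ := h
  dsimp only at hmaps hL hlip hnear hJ hc hbn hfix hs
  have hbK : b ∈ K := Node.subset hBK hbn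
  have hcK : c ∈ K := hBK hc
  obtain ⟨J', hJ', c', hc', hb⟩ := hbn
  have hCJ : ∀ x ∈ K, ∀ y ∈ K, ‖C (J x) - C (J y)‖ ≤ L * ‖x - y‖ := fun x hx y hy =>
    (hlip _ (hJ.maps hx) _ (hJ.maps hy)).trans (by gcongr; exact hJ.lip x hx y hy)
  have hcont : ContinuousOn (fun x => C (J x)) K :=
    (LipschitzOnWith.of_dist_le_mul (K := ⟨L, hL.le⟩) fun x hx y hy => by
      rw [dist_eq_norm, dist_eq_norm]; exact hCJ x hx y hy).continuousOn
  set κ : ℝ := η / (2 * (1 + 2 / L)) with hκ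
  have hκ0 : 0 < κ := by positivity
  have hκ1 : 2 * (1 + 2 / L) * κ = η := by rw [hκ]; field_simp
  have hκ2 : κ ≤ η := by
    have : 0 < 2 / L := by positivity
    nlinarith
  let e : ℕ → ℝ := fun n => κ * (1 / 2) ^ n
  have he0 : ∀ n, 0 < e n := fun n => by positivity
  have he1 : ∀ n, e n ≤ η := fun n => by
    have : (1 / 2 : ℝ) ^ n ≤ 1 := pow_le_one₀ (by norm_num) (by norm_num)
    simp only [e]; nlinarith
  let E : ℕ → Set X → Set X := fun n S => {w | w ∈ Node K F B ∧ ‖J' w - w‖ ≤ δ' ∧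
    ‖J w - w‖ ≤ e n ∧ (∀ y ∈ K, ‖C y - w‖ ≤ (1 - L) * d + L * ‖y - w‖ + e n) ∧
    ∀ q ∈ (fun x => C (J x)) '' convexHull ℝ (insert b (S ∩ K)), ∃ φ : StrongDual ℝ X,
      ‖φ‖ ≤ 1 ∧ d - e n ≤ φ (w - q) ∧ ∀ p ∈ P, d - e n ≤ φ (w - p)}
  have hE : ∀ n S, S.Finite → E n S ∈ F ⊓ 𝓟 (Node K F B) := by
    intro n S hS
    have hsub : convexHull ℝ (insert b (S ∩ K)) ⊆ K :=
      convexHull_min (insert_subset hbK inter_subset_right) D.cv
    have hQ := D.gk_fun hP hPK (Q := (fun x => C (J x)) '' convexHull ℝ (insert b (S ∩ K)))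
      ((((hS.inter_of_left K).insert b).isCompact_convexHull ℝ).image_of_continuousOn
        (hcont.mono hsub))
      (by rintro _ ⟨x, hx, rfl⟩; exact hmaps (hJ.maps (hsub hx))) (he0 n)
    have hle : F ⊓ 𝓟 (Node K F B) ≤ F := inf_le_left
    have hN : Node K F B ∈ F ⊓ 𝓟 (Node K F B) := mem_inf_of_right (mem_principal_self _)
    filter_upwards [hN, hle (hJ'.fix δ' hδ'), hle (hJ.fix _ (he0 n)), hle (hnear _ (he0 n)),
      hle hQ] with w h1 h2 h3 h4 h5
    exact ⟨h1, h2, h3, h4, h5⟩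
  obtain ⟨z, M, lam, hz, hlam0, hlam1, hzc⟩ := exists_comb hX (hB c hc) (R := d) (by
    filter_upwards [mem_inf_of_left D.mem] with w hw using D.diam w hw c hcK) E hE hδ
  have hzK : ∀ n, z n ∈ K := fun n => Node.subset hBK (hz n).1
  let p : ℕ → X := fun l => b + ∑ i ∈ Finset.range l, lam i • (z i - b)
  have hσ : ∀ l ≤ M, ∑ i ∈ Finset.range l, lam i ≤ 1 := fun l hl =>
    hlam1 ▸ Finset.sum_le_sum_of_subset_of_nonneg (Finset.range_mono hl) fun i _ _ => hlam0 i
  have hpH : ∀ l ≤ M, p l ∈ convexHull ℝ (insert b (z '' Iio l ∩ K)) := fun l hl =>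
    comb_mem (convex_convexHull _ _) (subset_convexHull _ _ (mem_insert _ _)) z lam l
      (fun i hi => subset_convexHull _ _ (mem_insert_of_mem _ ⟨⟨i, hi, rfl⟩, hzK i⟩)) hlam0
      (hσ l hl)
  have hpK : ∀ l ≤ M, p l ∈ K := fun l hl =>
    comb_mem D.cv hbK z lam l (fun i _ => hzK i) hlam0 (hσ l hl)
  have hAK : ∀ l < M, ∀ y ∈ K, p l + lam l • (y - b) ∈ K := by
    intro l hl y hy
    have := comb_mem D.cv hbK (fun i => if i = l then y else z i) lam (l + 1)
      (fun i _ => by split_ifs; exacts [hy, hzK i]) hlam0 (hσ _ hl)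
    rw [Finset.sum_range_succ, if_pos rfl, Finset.sum_congr rfl
      (fun i hi => by rw [if_neg (Finset.mem_range.1 hi).ne])] at this
    simpa [p, add_assoc] using this
  have hAn : ∀ l < M, ∀ y ∈ K, ∀ w ∈ K,
      ‖p l + lam l • (y - b) - w‖ ≤ (1 - lam l) * d + lam l * ‖y - w‖ := by
    intro l hl y hy w hw
    have h1 := hσ (l + 1) hl
    rw [Finset.sum_range_succ] at h1
    have heq : p l + lam l • (y - b) - w = (1 - (∑ i ∈ Finset.range l, lam i + lam l)) • (b - w) +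
        ∑ i ∈ Finset.range l, lam i • (z i - w) + lam l • (y - w) := by
      simp only [p, smul_sub, Finset.sum_sub_distrib, ← Finset.sum_smul]
      module
    have h2 : ‖∑ i ∈ Finset.range l, lam i • (z i - w)‖ ≤ (∑ i ∈ Finset.range l, lam i) * d := by
      rw [Finset.sum_mul]
      refine norm_sum_le_of_le _ fun i _ => ?_
      rw [norm_smul, Real.norm_eq_abs, abs_of_nonneg (hlam0 i)]
      exact mul_le_mul_of_nonneg_left (D.diam _ (hzK i) _ hw) (hlam0 i)
    have h3 : ‖(1 - (∑ i ∈ Finset.range l, lam i + lam l)) • (b - w)‖ ≤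
        (1 - (∑ i ∈ Finset.range l, lam i + lam l)) * d := by
      rw [norm_smul, Real.norm_eq_abs, abs_of_nonneg (by linarith)]
      exact mul_le_mul_of_nonneg_left (D.diam _ hbK _ hw) (by linarith)
    have h4 : ‖lam l • (y - w)‖ = lam l * ‖y - w‖ := by
      rw [norm_smul, Real.norm_eq_abs, abs_of_nonneg (hlam0 l)]
    rw [heq]
    refine (norm_add₃_le).trans ?_
    linarith
  have hpsucc : ∀ l, p l + lam l • (z l - b) = p (l + 1) := fun l => by
    simp only [p, Finset.sum_range_succ, add_assoc]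
  have hφex : ∀ l, ∃ φ : StrongDual ℝ X, l < M → ‖φ‖ ≤ 1 ∧ d - e l ≤ φ (z l - C (J (p l))) ∧
      ∀ q ∈ P, d - e l ≤ φ (z l - q) := by
    intro l
    by_cases hl : l < M
    · obtain ⟨φ, hφ⟩ := (hz l).2.2.2.2 _ ⟨p l, hpH l hl.le, rfl⟩
      exact ⟨φ, fun _ => hφ⟩
    · exact ⟨0, fun h => absurd h hl⟩
  choose φ hφ using hφex
  have hφle : ∀ l < M, ∀ v : X, |φ l v| ≤ ‖v‖ := fun l hl v => by
    have := (φ l).le_opNorm v
    rw [Real.norm_eq_abs] at this
    nlinarith [(hφ l hl).1, norm_nonneg v]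
  let Dv : ℕ → X := fun l => C (J (p (l + 1))) - C (J (p l))
  have hφD : ∀ l < M, lam l * d - φ l (Dv l) / L ≤ (1 + 2 / L) * e l := by
    intro l hl
    have h1 := (hφ l hl).2.1
    have h2 := (hz l).2.2.2.1 _ (hJ.maps (hpK (l + 1) hl))
    have h3 : ‖J (p (l + 1)) - z l‖ ≤ (1 - lam l) * d + e l := by
      have h4 := hAn l hl (z l) (hzK l) (z l) (hzK l)
      rw [hpsucc, sub_self, norm_zero, mul_zero, add_zero] at h4
      have h5 := hJ.lip _ (hpK (l + 1) hl) _ (hzK l)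
      have h6 := norm_sub_le_norm_sub_add_norm_sub (J (p (l + 1))) (J (z l)) (z l)
      linarith [(hz l).2.2.1]
    have h4 := hφle l hl (C (J (p (l + 1))) - z l)
    have h5 : φ l (Dv l) = φ l (C (J (p (l + 1))) - z l) + φ l (z l - C (J (p l))) := by
      simp only [Dv, map_sub]; ring
    have h6 := neg_abs_le (φ l (C (J (p (l + 1))) - z l))
    have h7 : L * ‖J (p (l + 1)) - z l‖ ≤ L * ((1 - lam l) * d + e l) := by gcongr
    have h8 : L * (lam l * d) - φ l (Dv l) ≤ (L + 2) * e l := by nlinarith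
    have h9 : lam l * d - φ l (Dv l) / L = (L * (lam l * d) - φ l (Dv l)) / L := by field_simp
    rw [h9, div_le_iff₀ hL]
    calc _ ≤ (L + 2) * e l := h8
      _ = _ := by field_simp
  obtain ⟨l, hl, hlpos, hlt⟩ := exists_index M lam
    (fun l => (-s / L) * Φ (Dv l) - (lam l * d - φ l (Dv l) / L))
    (Φ (St.u ⟨C, L, J, c, b, s⟩) - 2 * N * δ - η) hlam0 hlam1
    (fun l _ h0 => by
      have : Dv l = 0 := by simp only [Dv, ← hpsucc, h0, zero_smul, add_zero, sub_self]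
      simp [this, h0]) (by
      rw [Finset.sum_sub_distrib, ← Finset.mul_sum, ← map_sum]
      have h1 : ∑ i ∈ Finset.range M, Dv i = C (J (p M)) - C (J b) := by
        rw [Finset.sum_range_sub (fun l => C (J (p l)))]
        simp [p]
      have h2 : ∑ i ∈ Finset.range M, (lam i * d - φ i (Dv i) / L) ≤ η := by
        refine (Finset.sum_le_sum fun i hi => hφD i (Finset.mem_range.1 hi)).trans ?_
        simp only [e]
        rw [← Finset.mul_sum, ← Finset.mul_sum, ← hκ1]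
        have := sum_geometric_two_le M
        have h3 : 0 < 1 + 2 / L := by positivity
        nlinarith [mul_pos h3 hκ0]
      have h3 : p M = ∑ i ∈ Finset.range M, lam i • z i := by
        simp only [p, smul_sub, Finset.sum_sub_distrib, ← Finset.sum_smul, hlam1]
        module
      have h4 : ‖C (J (p M)) - C (J c)‖ ≤ L * δ :=
        (hCJ _ (hpK M le_rfl) _ hcK).trans (by gcongr; rwa [h3])
      have h5 : ‖C (J b) - C b‖ ≤ L * δ :=
        (hlip _ (hJ.maps hbK) _ hbK).trans (by gcongr)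
      have h6 : (-s / L) * Φ (C (J (p M)) - C (J b)) - Φ (St.u ⟨C, L, J, c, b, s⟩) =
          Φ ((-s / L) • ((C (J (p M)) - C (J c)) - (C (J b) - C b))) := by
        simp only [St.u, map_smul, map_sub, smul_eq_mul]; ring
      have h7 : ‖(-s / L) • ((C (J (p M)) - C (J c)) - (C (J b) - C b))‖ ≤ 2 * δ := by
        rw [norm_smul, Real.norm_eq_abs, abs_div, abs_neg, hs, abs_of_pos hL]
        calc _ ≤ 1 / L * (L * δ + L * δ) := by
              gcongr; exact (norm_sub_le _ _).trans (add_le_add h4 h5)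
          _ = _ := by field_simp; ring
      have h8 := Φ.le_opNorm ((-s / L) • ((C (J (p M)) - C (J c)) - (C (J b) - C b)))
      rw [Real.norm_eq_abs, ← h6] at h8
      have h9 := neg_abs_le ((-s / L) * Φ (C (J (p M)) - C (J b)) - Φ (St.u ⟨C, L, J, c, b, s⟩))
      have h10 : ‖Φ‖ * ‖(-s / L) • ((C (J (p M)) - C (J c)) - (C (J b) - C b))‖ ≤ N * (2 * δ) :=
        mul_le_mul hΦ h7 (norm_nonneg _) ((norm_nonneg _).trans hΦ)
      rw [h1]
      linarith)
  have hss : s * s = 1 := by rw [← abs_mul_abs_self, hs, one_mul]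
  refine ⟨⟨fun y => C (J (p l + lam l • (y - b))), L * lam l, J', c', z l, -s⟩, (-s) • φ l,
    ⟨fun y hy => hmaps (hJ.maps (hAK l hl y hy)), mul_pos hL hlpos, fun x hx y hy => ?_,
      fun ε hε => ?_, hJ', hc', (hz l).1, (hz l).2.1, by simpa using hs⟩, ?_, ?_, ?_⟩
  · refine (hCJ _ (hAK l hl x hx) _ (hAK l hl y hy)).trans (le_of_eq ?_)
    have : p l + lam l • (x - b) - (p l + lam l • (y - b)) = lam l • (x - y) := by module
    rw [this, norm_smul, Real.norm_eq_abs, abs_of_pos hlpos, mul_assoc]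
  · filter_upwards [hnear (ε / 2) (by positivity), hJ.fix (ε / (2 * L)) (by positivity), D.mem]
      with w h1 h2 hw y hy
    have h3 := h1 _ (hJ.maps (hAK l hl y hy))
    have h4 := hAn l hl y hy w hw
    have h5 := hJ.lip _ (hAK l hl y hy) _ hw
    have h6 := norm_sub_le_norm_sub_add_norm_sub (J (p l + lam l • (y - b))) (J w) w
    have h7 : L * ‖J (p l + lam l • (y - b)) - w‖ ≤
        L * ((1 - lam l) * d + lam l * ‖y - w‖ + ε / (2 * L)) := by gcongr; linarith
    have h8 : L * (ε / (2 * L)) = ε / 2 := by field_simp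
    nlinarith
  · rw [norm_smul, Real.norm_eq_abs, abs_neg, hs, one_mul]; exact (hφ l hl).1
  · have hu : St.u ⟨fun y => C (J (p l + lam l • (y - b))), L * lam l, J', c', z l, -s⟩ =
        (-s / (L * lam l)) • Dv l := by
      simp only [St.u, ← hb, sub_self, smul_zero, add_zero, hpsucc, Dv]
    rw [hu]
    refine le_of_mul_le_mul_left (hlt.trans (le_of_eq ?_)) hlpos
    simp only [map_smul, smul_apply, smul_eq_mul]
    field_simp
    linear_combination (-(φ l) (Dv l)) * hss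
  · intro a ha a' ha'
    have h1 := (hφ l hl).2.2 a ha
    have h2 := (hφ l hl).2.2 a' ha'
    have h3 := (le_abs_self _).trans ((hφle l hl (z l - a)).trans (D.diam _ (hzK l) _ (hPK ha)))
    have h4 := (le_abs_self _).trans ((hφle l hl (z l - a')).trans (D.diam _ (hzK l) _ (hPK ha')))
    have h5 : φ l (a - a') = φ l (z l - a') - φ l (z l - a) := by simp only [map_sub]; ring
    rw [smul_apply, smul_eq_mul, abs_mul, abs_neg, hs, one_mul, h5, abs_le]
    constructor <;> linarith [he1 l]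

/-- The data of a fixed point free map cannot exist. -/
theorem not_data (hX : WCpt X) (D : Data K F d) : False := by
  obtain ⟨B, hBne, hBK, hB⟩ := exists_base hX D
  have hd := D.pos
  let δ : ℕ → ℝ := fun n => d / 16 * (1 / 2) ^ n / (n + 1)
  let η : ℕ → ℝ := fun n => d / 8 * (1 / 2) ^ n
  have hδ : ∀ n, 0 < δ n := fun n => by positivity
  have hη : ∀ n, 0 < η n := fun n => by positivity
  obtain ⟨c0, hc0⟩ := hBne
  obtain ⟨J0, hJ0, -⟩ := D.res univ univ_mem
  obtain ⟨b0, hb1, hb2⟩ : ∃ b, ‖J0 b - b‖ ≤ δ 0 ∧ b ∈ Node K F B := by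
    have := D.neBot ⟨c0, hc0⟩ hBK
    have h1 : ∀ᶠ w in F ⊓ 𝓟 (Node K F B), ‖J0 w - w‖ ≤ δ 0 := mem_inf_of_left (hJ0.fix _ (hδ 0))
    exact (h1.and (mem_inf_of_right (mem_principal_self _))).exists
  obtain ⟨f, hf1, hf2⟩ := dc (α := St X × StrongDual ℝ X × StrongDual ℝ X × Set X)
    (fun n a => Inv K F d B (δ n) a.1 ∧ ‖a.2.2.1‖ ≤ n ∧ a.2.2.2.Finite ∧ a.2.2.2 ⊆ K ∧
      a.1.C a.1.b ∈ a.2.2.2 ∧ a.1.C (a.1.J a.1.c) ∈ a.2.2.2 ∧ (n = 0 → a.2.2.1 = 0) ∧
      n * d - a.2.2.1 a.1.u ≤ d / 2 * (1 - (1 / 2) ^ n))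
    (fun n a a' => a'.2.2.1 = a.2.2.1 + a'.2.1 ∧ ‖a'.2.1‖ ≤ 1 ∧ a.2.2.2 ⊆ a'.2.2.2 ∧
      ∀ p ∈ a.2.2.2, ∀ q ∈ a.2.2.2, |a'.2.1 (p - q)| ≤ η n)
    (⟨id, 1, J0, c0, b0, 1⟩, 0, 0, {b0, J0 c0})
    ⟨⟨mapsTo_id K, one_pos, fun x _ y _ => by simp,
      fun ε hε => Eventually.of_forall fun w y _ => by simp [hε.le], hJ0, hc0, hb2, hb1, by simp⟩,
      by simp, toFinite _, insert_subset (Node.subset hBK hb2)
        (singleton_subset_iff.2 (hJ0.maps (hBK hc0))), by simp, by simp, fun _ => rfl, by simp⟩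
    (by
      rintro n ⟨σ, ψ, Φ, P⟩ ⟨h1, h2, h3, h4, -, -, -, h8⟩
      obtain ⟨σ', φ, g1, g2, g3, g4⟩ := step hX D hBK hB (hδ n) h1 Φ h2 h3 h4 (hδ (n + 1)) (hη n)
      refine ⟨(σ', φ, Φ + φ, insert (σ'.C σ'.b) (insert (σ'.C (σ'.J σ'.c)) P)),
        ⟨g1, ?_, (h3.insert _).insert _, insert_subset (g1.maps (Node.subset hBK g1.node))
          (insert_subset (g1.maps (g1.good.maps (hBK g1.base))) h4), mem_insert _ _,
          mem_insert_of_mem _ (mem_insert _ _), fun h => by omega, ?_⟩, rfl, g2,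
          (subset_insert _ _).trans (subset_insert _ _), g4⟩
      · push_cast; exact (norm_add_le _ _).trans (add_le_add h2 g2)
      · have h9 : 2 * (n : ℝ) * δ n ≤ d / 8 * (1 / 2) ^ n := by
          have : 2 * (n : ℝ) * δ n = d / 8 * (1 / 2) ^ n * (n / (n + 1)) := by
            simp only [δ]; field_simp; ring
          rw [this]
          exact mul_le_of_le_one_right (by positivity)
            ((div_le_one (by positivity)).2 (by linarith))
        simp only [η, add_apply, pow_succ] at *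
        push_cast
        linarith)
  have hsum : ∀ n, (f n).2.2.1 = ∑ i ∈ Finset.range n, (f (i + 1)).2.1 := by
    intro n
    induction n with
    | zero => simpa using (hf1 0).2.2.2.2.2.2.1 rfl
    | succ n ih => rw [(hf2 n).1, ih, Finset.sum_range_succ]
  have hmono : Monotone fun n => (f n).2.2.2 := monotone_nat_of_le_succ fun n => (hf2 n).2.2.1
  have hu : ∀ k, ‖(f k).1.u‖ ≤ d := fun k => (hf1 k).1.norm_u D hBK
  refine james hX (fun k => (f k).1.u) (fun i => (f (i + 1)).2.1) d (d / 4) (d / 2) (by linarith)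
    hu (fun i => (hf2 i).2.1) (fun i => ?_) (fun k => ?_)
  · filter_upwards [eventually_gt_atTop i] with k hk
    have h1 := (hf1 k).2.2.2.2.2.2.2
    have h2 : ∑ j ∈ Finset.range k, (d - (f (j + 1)).2.1 (f k).1.u) =
        k * d - (f k).2.2.1 (f k).1.u := by
      rw [hsum k, Finset.sum_sub_distrib]; simp
    have h3 := Finset.single_le_sum (f := fun j => d - (f (j + 1)).2.1 (f k).1.u)
      (s := Finset.range k) (fun j _ => by
        have := (f (j + 1)).2.1.le_opNorm (f k).1.u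
        rw [Real.norm_eq_abs] at this
        nlinarith [le_abs_self ((f (j + 1)).2.1 (f k).1.u), (hf2 j).2.1, hu k,
          norm_nonneg (f k).1.u]) (Finset.mem_range.2 hk)
    have h4 : 0 ≤ d / 2 * (1 / 2 : ℝ) ^ k := by positivity
    linarith
  · have hL := (hf1 k).1.pos
    have hlim : Tendsto η atTop (𝓝 (d / 8 * 0)) :=
      (tendsto_pow_atTop_nhds_zero_of_lt_one (by norm_num) (by norm_num)).const_mul _
    rw [mul_zero] at hlim
    filter_upwards [eventually_ge_atTop k,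
      hlim.eventually (Iic_mem_nhds (show 0 < (f k).1.L * (d / 4) by positivity))] with i hi h1
    have h2 := (hf2 i).2.2.2 _ (hmono hi (hf1 k).2.2.2.2.1) _ (hmono hi (hf1 k).2.2.2.2.2.1)
    refine (le_abs_self _).trans ?_
    rw [St.u, map_smul, smul_eq_mul, abs_mul, abs_div, (hf1 k).1.sgn, abs_of_pos hL]
    calc _ ≤ 1 / (f k).1.L * ((f k).1.L * (d / 4)) := by gcongr; exact h2.trans h1
      _ = _ := by field_simp

end Vale.Agent.P079
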