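import Mathlib

/-! Weak cluster points of filters, the James double limit lemma, dependent choice. -/

namespace Vale.Agent.P079

open Filter Topology Set Metric

variable {X : Type*} [NormedAddCommGroup X] [NormedSpace ℝ X]

/-- `x` is a weak cluster point of the filter `G`. -/
def WCl (G : Filter X) (x : X) : Prop :=
  ∀ (s : Finset (StrongDual ℝ X)) (ε : ℝ), 0 < ε → ∃ᶠ w in G, ∀ φ ∈ s, |φ w - φ x| < ε

/-- Every bounded proper filter has a weak cluster point. -/
def WCpt (X : Type*) [NormedAddCommGroup X] [NormedSpace ℝ X] : Prop :=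
  ∀ (G : Filter X) (B : Set X), G.NeBot → B ∈ G → Bornology.IsBounded B → ∃ x, WCl G x

theorem WCl.mono {G H : Filter X} {x : X} (h : WCl G x) (hGH : G ≤ H) : WCl H x :=
  fun s ε hε => (h s ε hε).filter_mono hGH

theorem wcpt_of_reflexive (hX : Function.Surjective (NormedSpace.inclusionInDoubleDual ℝ X)) :
    WCpt X := by
  intro G B hG hB hb
  have hc : IsCompact (closure ((toWeakSpace ℝ X) '' B)) := by
    apply NormedSpace.isCompact_closure_of_isBounded ℝ X
    · rw [Set.preimage_image_eq _ (toWeakSpace ℝ X).injective]; exact hb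
    · intro y _
      obtain ⟨x, hx⟩ := hX (WeakDual.toStrongDual y)
      refine ⟨toWeakSpace ℝ X x, ?_⟩
      apply WeakDual.toStrongDual.injective
      rw [← hx]; rfl
  have hle : map (toWeakSpace ℝ X) G ≤ 𝓟 (closure ((toWeakSpace ℝ X) '' B)) := by
    rw [le_principal_iff]
    exact mem_of_superset (image_mem_map hB) subset_closure
  obtain ⟨y, -, hy⟩ := hc hle
  refine ⟨(toWeakSpace ℝ X).symm y, fun s ε hε => ?_⟩
  have hn : ∀ᶠ w : WeakSpace ℝ X in 𝓝 y, ∀ φ ∈ s,
      |φ ((toWeakSpace ℝ X).symm w) - φ ((toWeakSpace ℝ X).symm y)| < ε := by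
    rw [eventually_all_finset]
    intro φ _
    have hcont : Continuous fun w : WeakSpace ℝ X => φ ((toWeakSpace ℝ X).symm w) :=
      WeakBilin.eval_continuous (topDualPairing ℝ X).flip φ
    have := hcont.tendsto y (ball_mem_nhds _ hε)
    filter_upwards [this] with w hw
    simpa [Real.dist_eq] using hw
  have := hy.frequently hn
  rw [frequently_map] at this
  simpa using this

theorem WCl.le_of_eventually {G : Filter X} {x : X} (h : WCl G x) (φ : StrongDual ℝ X) {a : ℝ}
    (ha : ∀ᶠ w in G, φ w ≤ a) : φ x ≤ a := by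
  refine le_of_forall_pos_le_add fun ε hε => ?_
  obtain ⟨w, hw1, hw2⟩ := ((h {φ} ε hε).and_eventually ha).exists
  have := hw1 φ (by simp)
  rw [abs_lt] at this
  linarith [this.1]

theorem WCl.mem_of_convex {G : Filter X} {x : X} (h : WCl G x) {A : Set X} (hA : A ∈ G)
    (hcl : IsClosed A) (hcv : Convex ℝ A) : x ∈ A := by
  by_contra hx
  obtain ⟨f, u, hfA, hfx⟩ := geometric_hahn_banach_closed_point hcv hcl hx
  have := h.le_of_eventually f (a := u) (by filter_upwards [hA] with w hw using (hfA w hw).le)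
  linarith

/-- The double limit lemma. -/
theorem james (hX : WCpt X) (u : ℕ → X) (φ : ℕ → StrongDual ℝ X) (R α β : ℝ) (hαβ : α < β)
    (hu : ∀ k, ‖u k‖ ≤ R) (hφ : ∀ i, ‖φ i‖ ≤ 1)
    (h1 : ∀ i, ∀ᶠ k in atTop, β ≤ φ i (u k)) (h2 : ∀ k, ∀ᶠ i in atTop, φ i (u k) ≤ α) : False := by
  obtain ⟨x, hx⟩ := hX (map u atTop) (closedBall 0 R) inferInstance
    (by rw [mem_map]; exact Eventually.of_forall fun k => by simpa using hu k) isBounded_closedBall
  have hxi : ∀ i, β ≤ φ i x := by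
    intro i
    have := hx.le_of_eventually (-φ i) (a := -β) (by
      rw [eventually_map]; filter_upwards [h1 i] with k hk; simpa using hk)
    simpa using this
  have hc := WeakDual.isCompact_closedBall (𝕜 := ℝ) (E := X) 0 1
  have hle : map (fun i => StrongDual.toWeakDual (φ i)) atTop ≤
      𝓟 (WeakDual.toStrongDual ⁻¹' closedBall (0 : StrongDual ℝ X) 1) := by
    rw [le_principal_iff, mem_map]
    exact Eventually.of_forall fun i => by simpa using hφ i
  obtain ⟨ψ, -, hψ⟩ := hc hle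
  have hev : ∀ (y : X) (S : Set ℝ), IsClosed S → (∀ᶠ i in atTop, φ i y ∈ S) → ψ y ∈ S := by
    intro y S hS hy
    have hcl : IsClosed {χ : WeakDual ℝ X | χ y ∈ S} := hS.preimage (WeakDual.eval_continuous y)
    have : ClusterPt ψ (𝓟 {χ : WeakDual ℝ X | χ y ∈ S}) :=
      hψ.mono (by rw [le_principal_iff, mem_map]; exact hy)
    exact hcl.closure_subset (mem_closure_iff_clusterPt.2 this)
  have hβ : β ≤ ψ x := hev x (Ici β) isClosed_Ici (Eventually.of_forall hxi)
  have hα : WeakDual.toStrongDual ψ x ≤ α := by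
    apply hx.le_of_eventually
    rw [eventually_map]
    exact Eventually.of_forall fun k => hev (u k) (Iic α) isClosed_Iic (h2 k)
  have : WeakDual.toStrongDual ψ x = ψ x := rfl
  linarith

/-- Zorn: a minimal member of a family of bounded weakly closed sets. -/
theorem exists_minimal (hX : WCpt X) (S : Set (Set X)) (K : Set X) (hK : K ∈ S)
    (hb : Bornology.IsBounded K)
    (hne : ∀ A ∈ S, A.Nonempty) (hsub : ∀ A ∈ S, A ⊆ K)
    (hcl : ∀ A ∈ S, ∀ x, WCl (𝓟 A) x → x ∈ A)
    (hch : ∀ c ⊆ S, c.Nonempty → (⋂₀ c).Nonempty → ⋂₀ c ∈ S) :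
    ∃ m, Minimal (· ∈ S) m := by
  suffices H : ∀ c ⊆ S, IsChain (· ⊆ ·) c → c.Nonempty → ∃ lb ∈ S, ∀ s ∈ c, lb ⊆ s by
    obtain ⟨m, -, hm⟩ := zorn_superset_nonempty S H K hK
    exact ⟨m, hm⟩
  intro c hc hchain hcne
  refine ⟨⋂₀ c, hch c hc hcne ?_, fun s hs => sInter_subset_of_mem hs⟩
  have hnb : (⨅ A ∈ c, 𝓟 A : Filter X).NeBot := by
    rw [← iInf_subtype'']
    have : Nonempty c := hcne.to_subtype
    apply iInf_neBot_of_directed'
    · intro A B
      rcases hchain.total A.2 B.2 with h | h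
      · exact ⟨A, le_rfl, principal_mono.2 h⟩
      · exact ⟨B, principal_mono.2 h, le_rfl⟩
    · intro A; exact principal_neBot_iff.2 (hne _ (hc A.2))
  obtain ⟨A0, hA0⟩ := hcne
  have hle : ∀ A ∈ c, (⨅ A ∈ c, 𝓟 A : Filter X) ≤ 𝓟 A := fun A hA => biInf_le _ hA
  obtain ⟨x, hx⟩ := hX _ A0 hnb (le_principal_iff.1 (hle A0 hA0)) (hb.subset (hsub _ (hc hA0)))
  exact ⟨x, fun A hA => hcl A (hc hA) x (hx.mono (hle A hA))⟩

theorem dc {α : Type*} (I : ℕ → α → Prop) (R : ℕ → α → α → Prop) (a0 : α) (h0 : I 0 a0)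
    (h : ∀ n a, I n a → ∃ b, I (n + 1) b ∧ R n a b) :
    ∃ f : ℕ → α, (∀ n, I n (f n)) ∧ ∀ n, R n (f n) (f (n + 1)) := by
  choose g hg1 hg2 using h
  let F : (n : ℕ) → {a // I n a} := fun n =>
    Nat.rec (motive := fun n => {a // I n a}) ⟨a0, h0⟩ (fun n a => ⟨g n a.1 a.2, hg1 n a.1 a.2⟩) n
  exact ⟨fun n => (F n).1, fun n => (F n).2, fun n => hg2 n (F n).1 (F n).2⟩

theorem dc2 {α : Type*} (R : ℕ → Set α → α → Prop)
    (h : ∀ n S, S.Finite → ∃ a, R n S a) :
    ∃ f : ℕ → α, ∀ n, R n (f '' Iio n) (f n) := by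
  obtain ⟨a0, ha0⟩ := h 0 ∅ finite_empty
  obtain ⟨F, hF1, hF2⟩ := dc (α := Set α × α) (fun n p => p.1.Finite ∧ R n p.1 p.2 ∧ (n = 0 → p.1 = ∅))
    (fun _ p q => q.1 = insert p.2 p.1) (∅, a0) ⟨finite_empty, ha0, fun _ => rfl⟩ (by
      rintro n ⟨S, a⟩ ⟨hS, -, -⟩
      obtain ⟨b, hb⟩ := h (n + 1) (insert a S) (hS.insert a)
      exact ⟨(insert a S, b), ⟨hS.insert a, hb, fun h => by omega⟩, rfl⟩)
  refine ⟨fun n => (F n).2, fun n => ?_⟩
  have : ∀ n, (F n).1 = (fun n => (F n).2) '' Iio n := by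
    intro n
    induction n with
    | zero => rw [(hF1 0).2.2 rfl]; simp
    | succ n ih =>
      have : Iio (n + 1) = insert n (Iio n) := by ext i; simp [le_iff_lt_or_eq, or_comm]
      rw [hF2 n, ih, this, image_insert_eq]
  rw [← this]; exact (hF1 n).2.1

/-- Hahn-Banach separation of a point from a convex set, with the distance. -/
theorem exists_sep (A : Set X) (hA : Convex ℝ A) (c : X) :
    ∃ ψ : StrongDual ℝ X, ‖ψ‖ ≤ 1 ∧ ∀ y ∈ A, infDist c A ≤ ψ (y - c) := by
  rcases (infDist_nonneg (x := c) (s := A)).eq_or_lt with h0 | hρ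
  · exact ⟨0, by simp, fun y _ => by simp [← h0]⟩
  set ρ := infDist c A
  obtain ⟨f, u, hf1, hf2⟩ := geometric_hahn_banach_open (convex_ball c ρ) isOpen_ball hA
    (disjoint_ball_infDist)
  have hu : 0 < u - f c := sub_pos.2 (hf1 c (mem_ball_self hρ))
  have hfn : ‖f‖ ≤ (u - f c) / ρ := by
    refine ContinuousLinearMap.opNorm_le_bound _ (by positivity) fun v => ?_
    rcases eq_or_ne v 0 with rfl | hv
    · simp
    have hvn : 0 < ‖v‖ := norm_pos_iff.2 hv
    have key : ∀ t : ℝ, 0 < t → t < 1 → t * |f v| ≤ (u - f c) / ρ * ‖v‖ := by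
      intro t ht0 ht1
      have hb : ∀ σ : ℝ, |σ| = 1 → σ * (t * ρ / ‖v‖) * f v < u - f c := by
        intro σ hσ
        have := hf1 (c + (σ * (t * ρ / ‖v‖)) • v) (by
          rw [mem_ball_iff_norm, add_sub_cancel_left, norm_smul, Real.norm_eq_abs, abs_mul, hσ,
            one_mul, abs_of_pos (by positivity), div_mul_cancel₀ _ hvn.ne']
          nlinarith)
        simp only [map_add, map_smul, smul_eq_mul] at this
        linarith
      have h3 : (t * ρ / ‖v‖) * |f v| ≤ u - f c := by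
        rcases abs_cases (f v) with h | h
        · have := hb 1 (by simp); rw [h.1]; linarith
        · have := hb (-1) (by simp); rw [h.1]; linarith
      have h4 : t * |f v| = (t * ρ / ‖v‖) * |f v| * (‖v‖ / ρ) := by field_simp
      rw [h4]
      calc _ ≤ (u - f c) * (‖v‖ / ρ) := by gcongr
        _ = _ := by ring
    rw [Real.norm_eq_abs]
    have hlim : Tendsto (fun t : ℝ => t * |f v|) (𝓝[<] 1) (𝓝 (1 * |f v|)) :=
      ((continuous_id.mul continuous_const).tendsto 1).mono_left nhdsWithin_le_nhds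
    rw [one_mul] at hlim
    refine le_of_tendsto hlim ?_
    filter_upwards [Ioo_mem_nhdsLT (show (0 : ℝ) < 1 by norm_num)] with t ht using key t ht.1 ht.2
  refine ⟨(ρ / (u - f c)) • f, ?_, fun y hy => ?_⟩
  · rw [norm_smul, Real.norm_eq_abs, abs_of_pos (by positivity)]
    calc _ ≤ ρ / (u - f c) * ((u - f c) / ρ) := by gcongr
      _ = 1 := by field_simp
  · have := hf2 y hy
    have h5 : (ρ / (u - f c)) • f (y - c) = ρ / (u - f c) * (f y - f c) := by
      rw [map_sub, smul_eq_mul]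
    calc ρ = ρ / (u - f c) * (u - f c) := by field_simp
      _ ≤ ρ / (u - f c) * (f y - f c) := by gcongr
      _ = _ := h5.symm

end Vale.Agent.P079
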